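import Vale.Agent.P274.Final

open Vale.Agent.P274

universe u

theorem Vale.Agent.Results.P274.BoundedSym.result (N : ℕ) (Z U : Set (Fin N → ℂ))
    (hZ : IsVariety Z) (hopen : ∃ O : Set (Fin N → ℂ), IsOpen O ∧ U = Z ∩ O)
    (hconn : IsConnected U) (hsemi : Semialg U) (hbdd : Bornology.IsBounded U)
    (Γ : Type u) [Group Γ] [MulAction Γ U]
    (hhol : ∀ γ : Γ, HolSub (fun x : U => ((γ • x : U) : Fin N → ℂ)))
    (hpd : ProperlyDiscontinuousSMul Γ U)
    (hcpt : CompactSpace (Quotient (MulAction.orbitRel Γ U))) :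
    ∃ (k : ℕ) (D : Set (Fin k → ℂ)), IsBSD D ∧ ∃ e : U ≃ D,
      HolSub (fun x : U => ((e x : D) : Fin k → ℂ)) ∧
      HolSub (fun y : D => ((e.symm y : U) : Fin N → ℂ)) :=
  final Z U hZ hopen hconn hsemi hbdd Γ hhol hpd hcpt
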